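import Vale.Agent.P369.H63.Rel

/-!
The second-order condition in dual form, for finite matrices.
-/

namespace Vale.Agent.P369.H63

open Matrix Filter Topology
open scoped ComplexOrder

noncomputable section

variable {α β : Type} [Fintype α] [DecidableEq α] [Fintype β] [DecidableEq β]

section opn

open scoped Matrix.Norms.L2Operator

theorem isOpen_spec : IsOpen {M : Matrix α α ℂ | Set.Ioi (0 : ℝ) ∈ 𝓝ˢ (spectrum ℝ M)} :=
  (upperHemicontinuous_spectrum ℝ (Matrix α α ℂ)).isOpen _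

end opn

omit [Fintype α] [DecidableEq α] in
theorem line_herm {A X : Matrix α α ℂ} (hA : A.IsHermitian) (hX : X.IsHermitian) (t : ℝ) :
    (A + (t : ℂ) • X).IsHermitian := by
  refine hA.add ?_
  unfold Matrix.IsHermitian
  rw [conjTranspose_smul, hX.eq]
  simp

/-- positive definiteness is an open condition. -/
theorem posDef_line {A X : Matrix α α ℂ} (hA : A.PosDef) (hX : X.IsHermitian) :
    ∀ᶠ t : ℝ in 𝓝 0, (A + (t : ℂ) • X).PosDef := by
  have h1 : Continuous fun t : ℝ => A + (t : ℂ) • X :=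
    continuous_const.add ((Complex.continuous_ofReal).smul continuous_const)
  have h0 : A ∈ {M : Matrix α α ℂ | Set.Ioi (0 : ℝ) ∈ 𝓝ˢ (spectrum ℝ M)} := by
    show Set.Ioi (0 : ℝ) ∈ 𝓝ˢ (spectrum ℝ A)
    rw [isOpen_Ioi.mem_nhdsSet, hA.isHermitian.spectrum_real_eq_range_eigenvalues]
    rintro _ ⟨i, rfl⟩
    exact hA.eigenvalues_pos i
  have h2 : ∀ᶠ t : ℝ in 𝓝 0, A + (t : ℂ) • X ∈
      {M : Matrix α α ℂ | Set.Ioi (0 : ℝ) ∈ 𝓝ˢ (spectrum ℝ M)} := by
    refine h1.continuousAt.eventually_mem ?_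
    rw [Complex.ofReal_zero, zero_smul, add_zero]
    exact isOpen_spec.mem_nhds h0
  filter_upwards [h2] with t ht
  have hH := line_herm hA.isHermitian hX t
  rw [hH.posDef_iff_eigenvalues_pos]
  intro i
  have ht' : Set.Ioi (0 : ℝ) ∈ 𝓝ˢ (spectrum ℝ (A + (t : ℂ) • X)) := ht
  rw [isOpen_Ioi.mem_nhdsSet, hH.spectrum_real_eq_range_eigenvalues] at ht'
  exact ht' ⟨i, rfl⟩

/-- primal second-order condition. -/
theorem so_primal {A U : Matrix α α ℂ} {p : α → ℝ} {C V : Matrix β β ℂ} {r : β → ℝ}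
    (hA : A.PosDef) (hU : Dg A U p) (hV : Dg C V r) (hp : ∀ i, 0 < p i)
    (hr : ∀ i, 0 < r i) (htA : A.trace = 1)
    (Φ : Matrix α α ℂ →ₗ[ℂ] Matrix β β ℂ) (hΦ : ∀ X, Φ Xᴴ = (Φ X)ᴴ)
    (htr : ∀ X, (Φ X).trace = X.trace) {f : ℝ}
    (h : ∀ A' : Matrix α α ℂ, A'.PosSemidef → A'.trace = 1 →
      rel (C + Φ (A' - A)) C ≤ f * rel A' A)
    {X : Matrix α α ℂ} (hX : X.IsHermitian) (hX0 : X.trace = 0) :
    ds (fun x y => (lm x y)⁻¹) r V (Φ X) ≤ f * ds (fun x y => (lm x y)⁻¹) p U X := by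
  have hΦX : (Φ X).IsHermitian := by
    unfold Matrix.IsHermitian
    rw [← hΦ, hX.eq]
  have hΦ0 : (Φ X).trace = 0 := by rw [htr, hX0]
  have h1 := tendsto_rel hV hr hΦX hΦ0
  have h2 := (tendsto_rel hU hp hX hX0).const_mul f
  rw [sum_kk hr hΦX] at h1
  rw [sum_kk hp hX] at h2
  have h3 := (posDef_line hA hX).filter_mono (nhdsWithin_le_nhds (s := {0}ᶜ))
  have h4 := le_of_tendsto_of_tendsto h1 h2 (by
    filter_upwards [h3, self_mem_nhdsWithin] with t ht ht0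
    have h5 := h _ ht.posSemidef (by rw [trace_add, trace_smul, hX0, smul_zero, add_zero, htA])
    rw [add_sub_cancel_left, map_smul] at h5
    have ht2 : 0 < t ^ 2 := by
      have : t ≠ 0 := ht0
      positivity
    rw [← mul_div_assoc, div_le_div_iff_of_pos_right ht2]
    exact h5)
  linarith

omit [DecidableEq α] in
theorem conj_herm {U Z : Matrix α α ℂ} (hZ : Z.IsHermitian) : (Uᴴ * Z * U).IsHermitian := by
  unfold Matrix.IsHermitian
  rw [conjTranspose_mul, conjTranspose_mul, conjTranspose_conjTranspose, hZ.eq, Matrix.mul_assoc]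

/-- trace of a product in a rotated basis -/
theorem trace_rot {U : Matrix α α ℂ} (tc : U * Uᴴ = 1) (X Y : Matrix α α ℂ) :
    (X * Y).trace = ∑ k, ∑ l, (Uᴴ * X * U) k l * (Uᴴ * Y * U) l k := by
  have h1 : (Uᴴ * X * U) * (Uᴴ * Y * U) = Uᴴ * (X * Y) * U := by
    calc (Uᴴ * X * U) * (Uᴴ * Y * U) = Uᴴ * X * (U * Uᴴ) * Y * U := by
          simp only [Matrix.mul_assoc]
      _ = Uᴴ * (X * Y) * U := by rw [tc]; simp only [Matrix.mul_one, Matrix.mul_assoc]
  have h2 : (X * Y).trace = (Uᴴ * (X * Y) * U).trace := by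
    rw [Matrix.trace_mul_comm (Uᴴ * (X * Y)) U, ← Matrix.mul_assoc, tc, Matrix.one_mul]
  rw [h2, ← h1, Matrix.trace]
  refine Finset.sum_congr rfl fun k _ => ?_
  rw [diag_apply, Matrix.mul_apply]

/-- Cauchy-Schwarz with weights. -/
theorem cs_ds {V : Matrix β β ℂ} {r : β → ℝ} (hr : ∀ i, 0 < r i) (tc : V * Vᴴ = 1)
    {X Z : Matrix β β ℂ} :
    ‖(X * Z).trace‖ ^ 2 ≤ ds (fun x y => (lm x y)⁻¹) r V X * ds lm r V Z := by
  have h1 : ‖(X * Z).trace‖ ≤ ∑ q : β × β, ‖(Vᴴ * X * V) q.1 q.2‖ * ‖(Vᴴ * Z * V) q.2 q.1‖ := by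
    rw [trace_rot tc, ← Finset.sum_product', Finset.univ_product_univ]
    refine (norm_sum_le _ _).trans (Finset.sum_le_sum fun q _ => ?_)
    rw [norm_mul]
  have h2 : (∑ q : β × β, ‖(Vᴴ * X * V) q.1 q.2‖ * ‖(Vᴴ * Z * V) q.2 q.1‖) ^ 2 ≤
      (∑ q : β × β, (lm (r q.1) (r q.2))⁻¹ * ‖(Vᴴ * X * V) q.1 q.2‖ ^ 2) *
      ∑ q : β × β, (lm (r q.1) (r q.2)) * ‖(Vᴴ * Z * V) q.2 q.1‖ ^ 2 := by
    refine Finset.sum_sq_le_sum_mul_sum_of_sq_le_mul _ (fun q _ => ?_) (fun q _ => ?_)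
      (fun q _ => le_of_eq ?_)
    · have := lm_pos (hr q.1) (hr q.2)
      positivity
    · have := lm_pos (hr q.1) (hr q.2)
      positivity
    · have := (lm_pos (hr q.1) (hr q.2)).ne'
      field_simp
  have h3 : ∑ q : β × β, (lm (r q.1) (r q.2)) * ‖(Vᴴ * Z * V) q.2 q.1‖ ^ 2 = ds lm r V Z := by
    unfold ds
    rw [← Finset.univ_product_univ, Finset.sum_product_right]
    refine Finset.sum_congr rfl fun k _ => Finset.sum_congr rfl fun l _ => ?_
    rw [lm_comm]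
  have h4 : ∑ q : β × β, (lm (r q.1) (r q.2))⁻¹ * ‖(Vᴴ * X * V) q.1 q.2‖ ^ 2 =
      ds (fun x y => (lm x y)⁻¹) r V X := by
    unfold ds
    rw [← Finset.univ_product_univ, Finset.sum_product]
  rw [h3, h4] at h2
  exact (pow_le_pow_left₀ (norm_nonneg _) h1 2).trans h2

/-- dual second-order condition, Hermitian case -/
theorem so_herm {A U : Matrix α α ℂ} {p : α → ℝ} {C V : Matrix β β ℂ} {r : β → ℝ}
    (hA : A.PosDef) (hU : Dg A U p) (hV : Dg C V r) (hp : ∀ i, 0 < p i)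
    (hr : ∀ i, 0 < r i) (htA : A.trace = 1)
    (Φ : Matrix α α ℂ →ₗ[ℂ] Matrix β β ℂ) (hΦ : ∀ X, Φ Xᴴ = (Φ X)ᴴ)
    (htr : ∀ X, (Φ X).trace = X.trace) {f : ℝ} (hf : 0 ≤ f)
    (h : ∀ A' : Matrix α α ℂ, A'.PosSemidef → A'.trace = 1 →
      rel (C + Φ (A' - A)) C ≤ f * rel A' A)
    {W : Matrix α α ℂ} {Z : Matrix β β ℂ} (hW : W.IsHermitian)
    (hWZ : ∀ X, (X * W).trace = (Φ X * Z).trace) (m : ℂ) (hm : m = (A * W).trace) :
    ds lm p U (W - m • 1) ≤ f * ds lm r V Z := by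
  have hmr : star m = m := by
    rw [hm, ← trace_conjTranspose, conjTranspose_mul, hA.isHermitian.eq, hW.eq,
      Matrix.trace_mul_comm]
  set Y : Matrix α α ℂ := W - m • 1 with hY
  have hYH : Y.IsHermitian := by
    unfold Matrix.IsHermitian
    rw [hY, conjTranspose_sub, conjTranspose_smul, hmr, hW.eq, conjTranspose_one]
  -- the test matrix
  set X' : Matrix α α ℂ := fun k l => (lm (p k) (p l) : ℂ) * (Uᴴ * Y * U) k l with hX'
  set X : Matrix α α ℂ := U * X' * Uᴴ with hX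
  have hrot : Uᴴ * X * U = X' := by
    rw [hX]
    calc Uᴴ * (U * X' * Uᴴ) * U = (Uᴴ * U) * X' * (Uᴴ * U) := by simp only [Matrix.mul_assoc]
      _ = X' := by rw [hU.ct, Matrix.one_mul, Matrix.mul_one]
  have hyH := conj_herm (U := U) hYH
  have hX'H : X'.IsHermitian := by
    unfold Matrix.IsHermitian
    ext k l
    rw [conjTranspose_apply, hX']
    have h1 : star ((Uᴴ * Y * U) l k) = (Uᴴ * Y * U) k l := by
      rw [← conjTranspose_apply, hyH.eq]
    simp only [star_mul', h1, lm_comm (p l) (p k)]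
    congr 1
    simp
  have hXH : X.IsHermitian := by
    unfold Matrix.IsHermitian
    rw [hX, conjTranspose_mul, conjTranspose_mul, conjTranspose_conjTranspose, hX'H.eq,
      Matrix.mul_assoc]
  have hAY : (A * Y).trace = 0 := by
    rw [hY, Matrix.mul_sub, trace_sub, ← hm, Matrix.mul_smul, trace_smul, Matrix.mul_one, htA,
      smul_eq_mul, mul_one, sub_self]
  have hX0 : X.trace = 0 := by
    have h1 : X.trace = X'.trace := by
      rw [hX, Matrix.mul_assoc, Matrix.trace_mul_comm, Matrix.mul_assoc, hU.ct, Matrix.mul_one]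
    have h2 : (A * Y).trace = X'.trace := by
      rw [trace_rot hU.tc]
      have h3 : Uᴴ * A * U = diagonal (fun i => (p i : ℂ)) := by
        conv_lhs => rw [hU.eq]
        calc Uᴴ * (U * diagonal (fun i => (p i : ℂ)) * Uᴴ) * U
            = (Uᴴ * U) * diagonal (fun i => (p i : ℂ)) * (Uᴴ * U) := by
              simp only [Matrix.mul_assoc]
          _ = _ := by rw [hU.ct, Matrix.one_mul, Matrix.mul_one]
      rw [h3, Matrix.trace]
      refine Finset.sum_congr rfl fun k _ => ?_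
      rw [diag_apply, Finset.sum_eq_single k]
      · rw [diagonal_apply_eq, hX']
        simp [lm]
      · intro l _ hl
        rw [diagonal_apply_ne _ hl.symm, zero_mul]
      · intro hk
        exact absurd (Finset.mem_univ k) hk
    rw [h1, ← h2, hAY]
  -- the value
  set N : ℝ := ds lm p U Y with hN
  have hN0 : 0 ≤ N := by
    refine Finset.sum_nonneg fun k _ => Finset.sum_nonneg fun l _ => ?_
    have := lm_pos (hp k) (hp l)
    positivity
  have e1 : ds (fun x y => (lm x y)⁻¹) p U X = N := by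
    rw [hN]
    unfold ds
    rw [hrot]
    refine Finset.sum_congr rfl fun k _ => Finset.sum_congr rfl fun l _ => ?_
    have := (lm_pos (hp k) (hp l))
    rw [hX']
    simp only [norm_mul, Complex.norm_real, Real.norm_eq_abs, abs_of_pos this]
    field_simp
  have e2 : (X * Y).trace = (N : ℂ) := by
    rw [trace_rot hU.tc, hrot, hN]
    unfold ds
    push_cast
    refine Finset.sum_congr rfl fun k _ => Finset.sum_congr rfl fun l _ => ?_
    have h1 : (Uᴴ * Y * U) l k = star ((Uᴴ * Y * U) k l) := by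
      rw [← conjTranspose_apply, hyH.eq]
    have h4 : (Uᴴ * Y * U) k l * star ((Uᴴ * Y * U) k l) = ((‖(Uᴴ * Y * U) k l‖ ^ 2 : ℝ) : ℂ) := by
      rw [Complex.star_def, Complex.mul_conj, Complex.normSq_eq_norm_sq]
    rw [hX']
    simp only
    rw [h1, mul_assoc, h4]
    push_cast
    ring
  have e3 : (Φ X * Z).trace = (N : ℂ) := by
    rw [← hWZ, ← e2, hY, Matrix.mul_sub, trace_sub, Matrix.mul_smul, trace_smul, Matrix.mul_one,
      hX0, smul_zero, sub_zero]
  have h5 := cs_ds hr hV.tc (X := Φ X) (Z := Z)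
  rw [e3, Complex.norm_real, Real.norm_eq_abs, sq_abs] at h5
  have h6 := so_primal hA hU hV hp hr htA Φ hΦ htr h hXH hX0
  rw [e1] at h6
  have hZ0 : 0 ≤ ds lm r V Z := by
    refine Finset.sum_nonneg fun k _ => Finset.sum_nonneg fun l _ => ?_
    have := lm_pos (hr k) (hr l)
    positivity
  have h7 : N ^ 2 ≤ f * N * ds lm r V Z := h5.trans (mul_le_mul_of_nonneg_right h6 hZ0)
  rcases hN0.eq_or_lt with h8 | h8
  · rw [← h8]; positivity
  · have h9 : N * N ≤ N * (f * ds lm r V Z) := by nlinarith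
    exact le_of_mul_le_mul_left h9 h8

omit [DecidableEq α] in
/-- a symmetric weighted double sum splits over the Hermitian parts -/
theorem ds_split {φ : ℝ → ℝ → ℝ} (hφ : ∀ x y, φ x y = φ y x) {p : α → ℝ} {U Y₁ Y₂ : Matrix α α ℂ}
    (h₁ : Y₁.IsHermitian) (h₂ : Y₂.IsHermitian) :
    ds φ p U (Y₁ + Complex.I • Y₂) = ds φ p U Y₁ + ds φ p U Y₂ := by
  have e : ∀ Z : Matrix α α ℂ, 2 * ds φ p U Z = ∑ k, ∑ l, φ (p k) (p l) *
      (‖(Uᴴ * Z * U) k l‖ ^ 2 + ‖(Uᴴ * Z * U) l k‖ ^ 2) := by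
    intro Z
    have h1 : ds φ p U Z = ∑ k, ∑ l, φ (p k) (p l) * ‖(Uᴴ * Z * U) l k‖ ^ 2 := by
      unfold ds
      rw [Finset.sum_comm]
      refine Finset.sum_congr rfl fun k _ => Finset.sum_congr rfl fun l _ => ?_
      rw [hφ]
    rw [two_mul]
    nth_rewrite 2 [h1]
    unfold ds
    rw [← Finset.sum_add_distrib]
    refine Finset.sum_congr rfl fun k _ => ?_
    rw [← Finset.sum_add_distrib]
    refine Finset.sum_congr rfl fun l _ => ?_
    ring
  have h3 : 2 * ds φ p U (Y₁ + Complex.I • Y₂) = 2 * ds φ p U Y₁ + 2 * ds φ p U Y₂ := by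
    rw [e, e, e, ← Finset.sum_add_distrib]
    refine Finset.sum_congr rfl fun k _ => ?_
    rw [← Finset.sum_add_distrib]
    refine Finset.sum_congr rfl fun l _ => ?_
    rw [← mul_add]
    congr 1
    have hr : Uᴴ * (Y₁ + Complex.I • Y₂) * U = Uᴴ * Y₁ * U + Complex.I • (Uᴴ * Y₂ * U) := by
      rw [Matrix.mul_add, Matrix.add_mul, Matrix.mul_smul, Matrix.smul_mul]
    have a1 : (Uᴴ * Y₁ * U) l k = star ((Uᴴ * Y₁ * U) k l) := by
      rw [← conjTranspose_apply, (conj_herm h₁).eq]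
    have a2 : (Uᴴ * Y₂ * U) l k = star ((Uᴴ * Y₂ * U) k l) := by
      rw [← conjTranspose_apply, (conj_herm h₂).eq]
    rw [hr]
    simp only [Matrix.add_apply, Matrix.smul_apply, smul_eq_mul, a1, a2]
    set a := (Uᴴ * Y₁ * U) k l
    set b := (Uᴴ * Y₂ * U) k l
    simp only [← Complex.normSq_eq_norm_sq, Complex.normSq_apply, Complex.star_def,
      Complex.add_re, Complex.add_im, Complex.mul_re, Complex.mul_im, Complex.I_re, Complex.I_im,
      Complex.conj_re, Complex.conj_im]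
    ring
  linarith

/-- **dual second-order condition** -/
theorem so_dual {A U : Matrix α α ℂ} {p : α → ℝ} {C V : Matrix β β ℂ} {r : β → ℝ}
    (hA : A.PosDef) (hU : Dg A U p) (hV : Dg C V r) (hp : ∀ i, 0 < p i)
    (hr : ∀ i, 0 < r i) (htA : A.trace = 1)
    (Φ : Matrix α α ℂ →ₗ[ℂ] Matrix β β ℂ) (hΦ : ∀ X, Φ Xᴴ = (Φ X)ᴴ)
    (htr : ∀ X, (Φ X).trace = X.trace) {f : ℝ} (hf : 0 ≤ f)
    (h : ∀ A' : Matrix α α ℂ, A'.PosSemidef → A'.trace = 1 →
      rel (C + Φ (A' - A)) C ≤ f * rel A' A)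
    (Ψ : Matrix β β ℂ → Matrix α α ℂ) (hΨ : ∀ X Z, (X * Ψ Z).trace = (Φ X * Z).trace)
    (Z : Matrix β β ℂ) :
    ds lm p U (Ψ Z - (A * Ψ Z).trace • 1) ≤ f * ds lm r V Z := by
  have hadd : ∀ Z₁ Z₂, Ψ (Z₁ + Z₂) = Ψ Z₁ + Ψ Z₂ := by
    intro Z₁ Z₂
    refine Matrix.ext_iff_trace_mul_left.2 fun X => ?_
    rw [hΨ, Matrix.mul_add, trace_add, Matrix.mul_add, trace_add, hΨ, hΨ]
  have hsm : ∀ (c : ℂ) (Z : Matrix β β ℂ), Ψ (c • Z) = c • Ψ Z := by
    intro c Z
    refine Matrix.ext_iff_trace_mul_left.2 fun X => ?_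
    rw [hΨ, Matrix.mul_smul, trace_smul, Matrix.mul_smul, trace_smul, hΨ]
  have hst : ∀ Z : Matrix β β ℂ, Ψ Zᴴ = (Ψ Z)ᴴ := by
    intro Z
    refine Matrix.ext_iff_trace_mul_left.2 fun X => ?_
    have h1 : (X * (Ψ Z)ᴴ).trace = star ((Xᴴ * Ψ Z).trace) := by
      rw [← trace_conjTranspose, conjTranspose_mul, conjTranspose_conjTranspose,
        Matrix.trace_mul_comm]
    have h2 : (Φ X * Zᴴ).trace = star ((Φ Xᴴ * Z).trace) := by
      rw [← trace_conjTranspose, conjTranspose_mul, hΦ, conjTranspose_conjTranspose,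
        Matrix.trace_mul_comm]
    rw [hΨ, h1, h2, hΨ]
  set Z₁ : Matrix β β ℂ := (1 / 2 : ℂ) • (Z + Zᴴ) with hZ1
  set Z₂ : Matrix β β ℂ := (-Complex.I / 2 : ℂ) • (Z - Zᴴ) with hZ2
  have hZ : Z = Z₁ + Complex.I • Z₂ := by
    rw [hZ1, hZ2, smul_smul]
    have : Complex.I * (-Complex.I / 2) = 1 / 2 := by
      rw [mul_div_assoc', mul_neg, Complex.I_mul_I]; norm_num
    rw [this, ← smul_add, add_add_sub_cancel, ← two_smul ℂ Z, smul_smul]
    norm_num
  have hH1 : Z₁.IsHermitian := by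
    unfold Matrix.IsHermitian
    rw [hZ1, conjTranspose_smul, conjTranspose_add, conjTranspose_conjTranspose, add_comm Zᴴ Z]
    congr 1
    simp
  have hH2 : Z₂.IsHermitian := by
    unfold Matrix.IsHermitian
    rw [hZ2, conjTranspose_smul, conjTranspose_sub, conjTranspose_conjTranspose,
      ← neg_sub Z Zᴴ, smul_neg, ← neg_smul]
    congr 1
    simp [Complex.conj_I]
    ring
  have hW1 : (Ψ Z₁).IsHermitian := by
    unfold Matrix.IsHermitian
    rw [← hst, hH1.eq]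
  have hW2 : (Ψ Z₂).IsHermitian := by
    unfold Matrix.IsHermitian
    rw [← hst, hH2.eq]
  have g1 := so_herm hA hU hV hp hr htA Φ hΦ htr hf h hW1 (fun X => hΨ X Z₁) _ rfl
  have g2 := so_herm hA hU hV hp hr htA Φ hΦ htr hf h hW2 (fun X => hΨ X Z₂) _ rfl
  have hr1 : ∀ W : Matrix α α ℂ, W.IsHermitian → (W - (A * W).trace • (1 : Matrix α α ℂ)).IsHermitian := by
    intro W hW
    have hmr : star (A * W).trace = (A * W).trace := by
      rw [← trace_conjTranspose, conjTranspose_mul, hA.isHermitian.eq, hW.eq,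
        Matrix.trace_mul_comm]
    unfold Matrix.IsHermitian
    rw [conjTranspose_sub, conjTranspose_smul, hmr, hW.eq, conjTranspose_one]
  have e1 : Ψ Z - (A * Ψ Z).trace • (1 : Matrix α α ℂ) = (Ψ Z₁ - (A * Ψ Z₁).trace • 1) +
      Complex.I • (Ψ Z₂ - (A * Ψ Z₂).trace • 1) := by
    have e2 : Ψ Z = Ψ Z₁ + Complex.I • Ψ Z₂ := by
      conv_lhs => rw [hZ]
      rw [hadd, hsm Complex.I Z₂]
    rw [e2, Matrix.mul_add, trace_add, Matrix.mul_smul, trace_smul, smul_sub, smul_smul, add_smul,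
      smul_eq_mul]
    abel
  have e3 : ds lm r V Z = ds lm r V Z₁ + ds lm r V Z₂ := by
    conv_lhs => rw [hZ]
    exact ds_split lm_comm hH1 hH2
  rw [e1, ds_split lm_comm (hr1 _ hW1) (hr1 _ hW2), e3]
  linarith

end

end Vale.Agent.P369.H63
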