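import Mathlib

/-!
Finite matrices: weighted double sums in an eigenbasis, and the relative entropy
`Tr A log A - Tr A log B` as an exact second-order expression.
-/

namespace Vale.Agent.P369.H63

open Matrix Filter Topology
open scoped ComplexOrder

noncomputable section

variable {α β : Type} [Fintype α] [DecidableEq α] [Fintype β] [DecidableEq β]

/-- `U` diagonalises `A` with real eigenvalues `p`. -/
structure Dg (A U : Matrix α α ℂ) (p : α → ℝ) : Prop where
  ct : Uᴴ * U = 1
  tc : U * Uᴴ = 1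
  eq : A = U * diagonal (fun i => (p i : ℂ)) * Uᴴ

/-- the weighted double sum `∑ φ(p_k, p_l) |(U† Z U)_kl|²`. -/
def ds (φ : ℝ → ℝ → ℝ) (p : α → ℝ) (U Z : Matrix α α ℂ) : ℝ :=
  ∑ k, ∑ l, φ (p k) (p l) * ‖(Uᴴ * Z * U) k l‖ ^ 2

theorem dg_of_herm {A : Matrix α α ℂ} (hA : A.IsHermitian) :
    Dg A (hA.eigenvectorUnitary : Matrix α α ℂ) hA.eigenvalues := by
  have h1 := hA.eigenvectorUnitary.2
  rw [Matrix.mem_unitaryGroup_iff] at h1
  have h2 := hA.eigenvectorUnitary.2
  rw [Matrix.mem_unitaryGroup_iff'] at h2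
  refine ⟨?_, ?_, ?_⟩
  · simpa [Matrix.star_eq_conjTranspose] using h2
  · simpa [Matrix.star_eq_conjTranspose] using h1
  · have h3 := hA.spectral_theorem
    rw [Unitary.conjStarAlgAut_apply] at h3
    simpa [Matrix.star_eq_conjTranspose, Function.comp_def] using h3

theorem Dg.herm {A U : Matrix α α ℂ} {p : α → ℝ} (h : Dg A U p) : A.IsHermitian := by
  rw [h.eq]
  unfold Matrix.IsHermitian
  simp only [conjTranspose_mul, conjTranspose_conjTranspose, diagonal_conjTranspose,
    Matrix.mul_assoc]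
  congr 3
  ext i
  simp

/-- the functional calculus in any diagonalisation. -/
theorem Dg.cfc {A U : Matrix α α ℂ} {p : α → ℝ} (h : Dg A U p) (f : ℝ → ℝ) :
    _root_.cfc f A = U * diagonal (fun i => (f (p i) : ℂ)) * Uᴴ := by
  classical
  have hU : U ∈ unitary (Matrix α α ℂ) := by
    rw [Unitary.mem_iff]
    exact ⟨h.ct, h.tc⟩
  have hspec : ∀ x ∈ spectrum ℝ A, ∃ i, p i = x := by
    intro x hx
    have h1 : spectrum ℝ A = spectrum ℝ (diagonal (fun i => (p i : ℂ)) : Matrix α α ℂ) := by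
      rw [h.eq]
      exact Unitary.spectrum_star_right_conjugate (U := ⟨U, hU⟩)
    rw [h1] at hx
    have h2 := spectrum.algebraMap_mem_iff ℂ |>.2 hx
    rw [spectrum_diagonal] at h2
    obtain ⟨i, hi⟩ := h2
    refine ⟨i, ?_⟩
    have : ((p i : ℝ) : ℂ) = ((x : ℝ) : ℂ) := by simpa using hi
    exact_mod_cast this
  -- interpolate
  obtain ⟨q, hq⟩ : ∃ q : Polynomial ℝ, ∀ i, q.eval (p i) = f (p i) := by
    refine ⟨Lagrange.interpolate (Finset.univ.image p) id f, fun i => ?_⟩
    have := Lagrange.eval_interpolate_at_node (s := Finset.univ.image p) (v := id) f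
      (Set.injOn_id _) (i := p i) (Finset.mem_image_of_mem _ (Finset.mem_univ i))
    simpa using this
  have hA : IsSelfAdjoint A := h.herm
  have h1 : _root_.cfc f A = _root_.cfc (fun x => q.eval x) A := by
    refine cfc_congr fun x hx => ?_
    obtain ⟨i, hi⟩ := hspec x hx
    rw [← hi]
    exact (hq i).symm
  rw [h1, cfc_polynomial q A hA]
  -- polynomial calculus
  have h2 : ∀ r : Polynomial ℝ, Polynomial.aeval A r =
      U * diagonal (fun i => ((r.eval (p i) : ℝ) : ℂ)) * Uᴴ := by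
    intro r
    induction r using Polynomial.induction_on' with
    | add a b ha hb =>
      rw [map_add, ha, hb, ← Matrix.add_mul, ← Matrix.mul_add, diagonal_add]
      congr 3
      ext i
      simp
    | monomial n a =>
      have h3 : ∀ n : ℕ, A ^ n = U * diagonal (fun i => ((p i) ^ n : ℂ)) * Uᴴ := by
        intro n
        induction n with
        | zero => simp [h.tc]
        | succ n ih =>
          rw [pow_succ, ih]
          conv_lhs => rw [h.eq]
          calc U * diagonal (fun i => ((p i) ^ n : ℂ)) * Uᴴ *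
              (U * diagonal (fun i => (p i : ℂ)) * Uᴴ)
              = U * (diagonal (fun i => ((p i) ^ n : ℂ)) * ((Uᴴ * U) *
                diagonal (fun i => (p i : ℂ)))) * Uᴴ := by
                simp only [Matrix.mul_assoc]
            _ = _ := by
                rw [h.ct, Matrix.one_mul, diagonal_mul_diagonal]
                simp only [pow_succ]
      rw [Polynomial.aeval_monomial, h3 n, Algebra.algebraMap_eq_smul_one, smul_mul_assoc,
        Matrix.one_mul, ← Matrix.smul_mul, ← Matrix.mul_smul]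
      congr 2
      ext i j
      by_cases hij : i = j
      · subst hij
        simp [Matrix.smul_apply, diagonal_apply_eq]
      · simp [Matrix.smul_apply, diagonal_apply_ne _ hij]
  rw [h2 q]
  simp only [hq]

/-- a unitary similarity as a trace. -/
theorem Dg.trace {A U : Matrix α α ℂ} {p : α → ℝ} (h : Dg A U p) : A.trace = ∑ i, (p i : ℂ) := by
  rw [h.eq, Matrix.mul_assoc, Matrix.trace_mul_comm, Matrix.mul_assoc, h.ct, Matrix.mul_one,
    Matrix.trace_diagonal]

/-- `Tr f(A) g(B)` in two eigenbases. -/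
theorem trace_cfc_mul {A U B V : Matrix α α ℂ} {p r : α → ℝ} (hA : Dg A U p) (hB : Dg B V r)
    (f g : ℝ → ℝ) : (cfc f A * cfc g B).trace.re =
      ∑ i, ∑ j, ‖(Vᴴ * U) i j‖ ^ 2 * (f (p j) * g (r i)) := by
  rw [hA.cfc f, hB.cfc g]
  have h1 : (U * diagonal (fun i => (f (p i) : ℂ)) * Uᴴ * (V * diagonal (fun i => (g (r i) : ℂ)) *
      Vᴴ)).trace = ((Vᴴ * U) * diagonal (fun i => (f (p i) : ℂ)) * (Vᴴ * U)ᴴ *
        diagonal (fun i => (g (r i) : ℂ))).trace := by
    rw [conjTranspose_mul, conjTranspose_conjTranspose]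
    have h2 : (U * diagonal (fun i => (f (p i) : ℂ)) * Uᴴ * (V * diagonal (fun i => (g (r i) : ℂ)) *
      Vᴴ)) = (U * diagonal (fun i => (f (p i) : ℂ)) * Uᴴ * V * diagonal (fun i => (g (r i) : ℂ))) *
      Vᴴ := by simp only [Matrix.mul_assoc]
    rw [h2, Matrix.trace_mul_comm]
    simp only [Matrix.mul_assoc]
  rw [h1, Matrix.trace, Complex.re_sum]
  refine Finset.sum_congr rfl fun i _ => ?_
  rw [diag_apply, mul_diagonal, Matrix.mul_apply, Finset.sum_mul, Complex.re_sum]
  refine Finset.sum_congr rfl fun j _ => ?_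
  rw [mul_diagonal, conjTranspose_apply]
  have h3 : (Vᴴ * U) i j * (f (p j) : ℂ) * star ((Vᴴ * U) i j) * (g (r i) : ℂ) =
      ((‖(Vᴴ * U) i j‖ ^ 2 * (f (p j) * g (r i)) : ℝ) : ℂ) := by
    have h4 : (Vᴴ * U) i j * star ((Vᴴ * U) i j) = ((‖(Vᴴ * U) i j‖ ^ 2 : ℝ) : ℂ) := by
      rw [Complex.star_def, Complex.mul_conj, Complex.normSq_eq_norm_sq]
    calc (Vᴴ * U) i j * (f (p j) : ℂ) * star ((Vᴴ * U) i j) * (g (r i) : ℂ)
        = ((Vᴴ * U) i j * star ((Vᴴ * U) i j)) * ((f (p j) : ℂ) * (g (r i) : ℂ)) := by ring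
      _ = _ := by rw [h4]; push_cast; ring
  rw [h3, Complex.ofReal_re]

/-- relative entropy `Tr A log A - Tr A log B`. -/
def rel (A B : Matrix α α ℂ) : ℝ := (A * (cfc Real.log A - cfc Real.log B)).trace.re

/-- `q log q - q log p - q + p` -/
def hh (q p : ℝ) : ℝ := q * Real.log q - q * Real.log p - q + p

/-- `hh q p / (q - p)^2`, extended by continuity. -/
def kk (q p : ℝ) : ℝ := if q = p then 1 / (2 * p) else hh q p / (q - p) ^ 2

theorem hh_eq (q p : ℝ) : hh q p = (q - p) ^ 2 * kk q p := by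
  unfold kk
  split_ifs with h
  · subst h; simp [hh]
  · have : (q - p) ^ 2 ≠ 0 := pow_ne_zero _ (sub_ne_zero.2 h)
    field_simp

theorem hh_pos {q p : ℝ} (hq : 0 ≤ q) (hp : 0 < p) (h : q ≠ p) : 0 < hh q p := by
  unfold hh
  rcases hq.eq_or_lt with rfl | hq
  · simpa using hp
  · have h1 : Real.log (p / q) < p / q - 1 := Real.log_lt_sub_one_of_pos (div_pos hp hq)
      (by rw [Ne, div_eq_one_iff_eq hq.ne']; exact fun h' => h h'.symm)
    rw [Real.log_div hp.ne' hq.ne'] at h1
    have h2 : q * (Real.log p - Real.log q) < q * (p / q - 1) := mul_lt_mul_of_pos_left h1 hq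
    have h3 : q * (p / q - 1) = p - q := by field_simp
    nlinarith

theorem hh_nonneg {q p : ℝ} (hq : 0 ≤ q) (hp : 0 < p) : 0 ≤ hh q p := by
  by_cases h : q = p
  · subst h; simp [hh]
  · exact (hh_pos hq hp h).le

theorem kk_pos {q p : ℝ} (hq : 0 ≤ q) (hp : 0 < p) : 0 < kk q p := by
  unfold kk
  split_ifs with h
  · positivity
  · exact div_pos (hh_pos hq hp h) (by have := sub_ne_zero.2 h; positivity)

theorem kk_continuous {p : ℝ} (hp : 0 < p) : Continuous fun q => kk q p := by
  have hc : Continuous fun q => hh q p := by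
    unfold hh
    exact ((Real.continuous_mul_log.sub (continuous_id.mul continuous_const)).sub
      continuous_id).add continuous_const
  rw [continuous_iff_continuousAt]
  intro q
  by_cases h : q = p
  · subst h
    -- limit at the diagonal
    have h1 : Tendsto (fun x => hh x q / (x - q) ^ 2) (𝓝[≠] q) (𝓝 (1 / (2 * q))) := by
      have hd : ∀ x : ℝ, x ≠ 0 → HasDerivAt (fun x => hh x q) (Real.log x - Real.log q) x := by
        intro x hx
        have h2 := ((Real.hasDerivAt_mul_log hx).sub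
          ((hasDerivAt_id x).mul_const (Real.log q))).sub (hasDerivAt_id x)
        have h3 := h2.add_const q
        refine h3.congr_deriv ?_
        ring
      have hd2 : ∀ x : ℝ, HasDerivAt (fun x => (x - q) ^ 2) (2 * (x - q)) x := by
        intro x
        have h2 := ((hasDerivAt_id x).sub_const q).pow 2
        refine h2.congr_deriv ?_
        simp
      have hne : ∀ᶠ x in 𝓝[≠] q, x ≠ 0 := by
        have : ∀ᶠ x in 𝓝 q, x ≠ 0 := (isOpen_ne.mem_nhds hp.ne')
        exact this.filter_mono nhdsWithin_le_nhds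
      refine HasDerivAt.lhopital_zero_nhdsNE (f' := fun x => Real.log x - Real.log q)
        (g' := fun x => 2 * (x - q)) ?_ ?_ ?_ ?_ ?_ ?_
      · filter_upwards [hne] with x hx using hd x hx
      · exact Eventually.of_forall hd2
      · filter_upwards [self_mem_nhdsWithin] with x hx
        have : x - q ≠ 0 := sub_ne_zero.2 hx
        positivity
      · have h4 : Tendsto (fun x => hh x q) (𝓝 q) (𝓝 (hh q q)) := hc.tendsto q
        have h5 : hh q q = 0 := by simp [hh]
        rw [h5] at h4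
        exact h4.mono_left nhdsWithin_le_nhds
      · have h4 : Tendsto (fun x => (x - q) ^ 2) (𝓝 q) (𝓝 ((q - q) ^ 2)) :=
          ((continuous_id.sub continuous_const).pow 2).tendsto q
        rw [sub_self, zero_pow two_ne_zero] at h4
        exact h4.mono_left nhdsWithin_le_nhds
      · have h6 := (Real.hasDerivAt_log hp.ne').tendsto_slope
        have h7 : Tendsto (fun x => (1 / 2 : ℝ) * slope Real.log q x) (𝓝[≠] q)
            (𝓝 ((1 / 2) * q⁻¹)) := h6.const_mul _
        have h8 : (1 / 2 : ℝ) * q⁻¹ = 1 / (2 * q) := by field_simp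
        rw [h8] at h7
        refine h7.congr' ?_
        filter_upwards [self_mem_nhdsWithin] with x hx
        have hx' : x - q ≠ 0 := sub_ne_zero.2 hx
        rw [slope_def_field]
        field_simp
    have h2 : ContinuousAt (Function.update (fun x => hh x q / (x - q) ^ 2) q (1 / (2 * q))) q := by
      rw [continuousAt_update_same]
      exact h1
    refine h2.congr ?_
    refine Eventually.of_forall fun x => ?_
    by_cases hx : x = q
    · subst hx; simp [kk]
    · simp [kk, hx]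
  · have h1 : ContinuousAt (fun x => hh x p / (x - p) ^ 2) q := by
      refine hc.continuousAt.div ((continuous_id.sub continuous_const).pow 2).continuousAt ?_
      exact pow_ne_zero _ (sub_ne_zero.2 h)
    refine h1.congr ?_
    filter_upwards [isOpen_ne.mem_nhds h] with x hx
    have : x ≠ p := hx
    simp [kk, this]

/-- the logarithmic mean -/
def lm (x y : ℝ) : ℝ := if x = y then x else (x - y) / (Real.log x - Real.log y)

theorem lm_comm (x y : ℝ) : lm x y = lm y x := by
  unfold lm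
  by_cases h : x = y
  · subst h; rfl
  · rw [if_neg h, if_neg (fun h' => h h'.symm), ← neg_sub y x, ← neg_sub (Real.log y), neg_div_neg_eq]

theorem lm_pos {x y : ℝ} (hx : 0 < x) (hy : 0 < y) : 0 < lm x y := by
  unfold lm
  split_ifs with h
  · exact hx
  · rcases lt_or_gt_of_ne h with h | h
    · have := Real.log_lt_log hx h
      exact div_pos_of_neg_of_neg (by linarith) (by linarith)
    · have := Real.log_lt_log hy h
      exact div_pos (by linarith) (by linarith)

theorem kk_add {x y : ℝ} (hx : 0 < x) (hy : 0 < y) : kk x y + kk y x = (lm x y)⁻¹ := by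
  unfold kk lm
  by_cases h : x = y
  · subst h
    simp only [if_true]
    field_simp
    norm_num
  · rw [if_neg h, if_neg (fun h' => h h'.symm), if_neg h, inv_div]
    have h1 : x - y ≠ 0 := sub_ne_zero.2 h
    have h2 : (y - x) ^ 2 = (x - y) ^ 2 := by ring
    rw [h2, ← add_div]
    unfold hh
    field_simp
    ring

/-- **the exact second-order formula for the relative entropy**. -/
theorem rel_eq {A U B V : Matrix α α ℂ} {p r : α → ℝ} (hA : Dg A U p) (hB : Dg B V r) :
    rel A B = (A.trace.re - B.trace.re) +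
      ∑ i, ∑ j, kk (p j) (r i) * ‖(Vᴴ * (A - B) * U) i j‖ ^ 2 := by
  have hid : A = cfc (id : ℝ → ℝ) A := (cfc_id ℝ A hA.herm).symm
  have e1 : (A * cfc Real.log A).trace.re = ∑ i, ∑ j, ‖(Vᴴ * U) i j‖ ^ 2 *
      (p j * Real.log (p j) * 1) := by
    have h1 : A * cfc Real.log A = cfc (fun x => x * Real.log x) A * cfc (fun _ => (1 : ℝ)) B := by
      have h2 : cfc (fun _ => (1 : ℝ)) B = 1 := cfc_const_one ℝ B hB.herm
      rw [h2, Matrix.mul_one, hA.cfc, hA.cfc]
      conv_lhs => rw [hA.eq]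
      have : U * diagonal (fun i => (p i : ℂ)) * Uᴴ *
          (U * diagonal (fun i => ((Real.log (p i) : ℝ) : ℂ)) * Uᴴ) =
          U * (diagonal (fun i => (p i : ℂ)) * ((Uᴴ * U) *
            diagonal (fun i => ((Real.log (p i) : ℝ) : ℂ)))) * Uᴴ := by
        simp only [Matrix.mul_assoc]
      rw [this, hA.ct, Matrix.one_mul, diagonal_mul_diagonal]
      push_cast
      rfl
    rw [h1, trace_cfc_mul hA hB]
  have e2 : (A * cfc Real.log B).trace.re = ∑ i, ∑ j, ‖(Vᴴ * U) i j‖ ^ 2 *
      (p j * Real.log (r i)) := by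
    have h1 : A * cfc Real.log B = cfc (id : ℝ → ℝ) A * cfc Real.log B := by rw [← hid]
    rw [h1, trace_cfc_mul hA hB]
    rfl
  have e3 : A.trace.re = ∑ i, ∑ j, ‖(Vᴴ * U) i j‖ ^ 2 * (p j * 1) := by
    have h1 : A = cfc (id : ℝ → ℝ) A * cfc (fun _ => (1 : ℝ)) B := by
      have h2 : cfc (fun _ => (1 : ℝ)) B = 1 := cfc_const_one ℝ B hB.herm
      rw [h2, Matrix.mul_one, ← hid]
    conv_lhs => rw [h1]
    rw [trace_cfc_mul hA hB]
    rfl
  have e4 : B.trace.re = ∑ i, ∑ j, ‖(Vᴴ * U) i j‖ ^ 2 * (1 * r i) := by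
    have h1 : B = cfc (fun _ => (1 : ℝ)) A * cfc (id : ℝ → ℝ) B := by
      have h2 : cfc (fun _ => (1 : ℝ)) A = 1 := cfc_const_one ℝ A hA.herm
      rw [h2, Matrix.one_mul]
      exact (cfc_id ℝ B hB.herm).symm
    conv_lhs => rw [h1]
    rw [trace_cfc_mul hA hB]
    rfl
  have e5 : ∀ i j, (Vᴴ * (A - B) * U) i j = ((p j - r i : ℝ) : ℂ) * (Vᴴ * U) i j := by
    intro i j
    have h1 : Vᴴ * A * U = (Vᴴ * U) * diagonal (fun i => (p i : ℂ)) := by
      conv_lhs => rw [hA.eq]
      have : Vᴴ * (U * diagonal (fun i => (p i : ℂ)) * Uᴴ) * U =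
          Vᴴ * U * diagonal (fun i => (p i : ℂ)) * (Uᴴ * U) := by simp only [Matrix.mul_assoc]
      rw [this, hA.ct, Matrix.mul_one]
    have h2 : Vᴴ * B * U = diagonal (fun i => (r i : ℂ)) * (Vᴴ * U) := by
      conv_lhs => rw [hB.eq]
      have : Vᴴ * (V * diagonal (fun i => (r i : ℂ)) * Vᴴ) * U =
          (Vᴴ * V) * (diagonal (fun i => (r i : ℂ)) * (Vᴴ * U)) := by simp only [Matrix.mul_assoc]
      rw [this, hB.ct, Matrix.one_mul]
    rw [Matrix.mul_sub, Matrix.sub_mul, h1, h2, Matrix.sub_apply, mul_diagonal, diagonal_mul]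
    push_cast
    ring
  unfold rel
  rw [Matrix.mul_sub, trace_sub, Complex.sub_re, e1, e2, e3, e4]
  simp only [← Finset.sum_sub_distrib, ← Finset.sum_add_distrib]
  refine Finset.sum_congr rfl fun i _ => Finset.sum_congr rfl fun j _ => ?_
  rw [e5, norm_mul, mul_pow, Complex.norm_real, Real.norm_eq_abs, sq_abs]
  have h := hh_eq (p j) (r i)
  unfold hh at h
  linear_combination (‖(Vᴴ * U) i j‖ ^ 2) * h

theorem row_cfc {A U : Matrix α α ℂ} {p : α → ℝ} (hA : Dg A U p) (f : ℝ → ℝ)
    (M : Matrix α α ℂ) (i : α) :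
    ∑ j, f (p j) * ‖(M * U) i j‖ ^ 2 = ((M * cfc f A * Mᴴ) i i).re := by
  rw [hA.cfc]
  have h1 : M * (U * diagonal (fun i => (f (p i) : ℂ)) * Uᴴ) * Mᴴ =
      (M * U) * diagonal (fun i => (f (p i) : ℂ)) * (M * U)ᴴ := by
    rw [conjTranspose_mul]
    simp only [Matrix.mul_assoc]
  rw [h1, Matrix.mul_apply, Complex.re_sum]
  refine Finset.sum_congr rfl fun j _ => ?_
  rw [mul_diagonal, conjTranspose_apply]
  have h4 : (M * U) i j * star ((M * U) i j) = ((‖(M * U) i j‖ ^ 2 : ℝ) : ℂ) := by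
    rw [Complex.star_def, Complex.mul_conj, Complex.normSq_eq_norm_sq]
  have h3 : (M * U) i j * (f (p j) : ℂ) * star ((M * U) i j) =
      ((f (p j) * ‖(M * U) i j‖ ^ 2 : ℝ) : ℂ) := by
    calc (M * U) i j * (f (p j) : ℂ) * star ((M * U) i j)
        = ((M * U) i j * star ((M * U) i j)) * (f (p j) : ℂ) := by ring
      _ = _ := by rw [h4]; push_cast; ring
  rw [h3, Complex.ofReal_re]

section cont

open scoped Matrix.Norms.L2Operator

/-- continuity of the functional calculus along a line. -/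
theorem cont_cfc {f : ℝ → ℝ} (hf : Continuous f) {B X : Matrix α α ℂ} (hB : B.IsHermitian)
    (hX : X.IsHermitian) : Continuous fun t : ℝ => cfc f (B + (t : ℂ) • X) := by
  have h1 : Continuous fun t : ℝ => B + (t : ℂ) • X :=
    continuous_const.add ((Complex.continuous_ofReal).smul continuous_const)
  refine Continuous.cfc_of_mem_nhdsSet f (s := Set.univ) Filter.univ_mem h1 ?_ hf.continuousOn
  intro t
  have : (B + (t : ℂ) • X).IsHermitian := by
    refine hB.add ?_
    unfold Matrix.IsHermitian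
    rw [conjTranspose_smul, hX.eq]
    simp
  exact this

end cont

/-- the second order of the relative entropy along a line. -/
theorem tendsto_rel {B V X : Matrix α α ℂ} {r : α → ℝ} (hB : Dg B V r) (hr : ∀ i, 0 < r i)
    (hX : X.IsHermitian) (htr : X.trace = 0) :
    Tendsto (fun t : ℝ => rel (B + (t : ℂ) • X) B / t ^ 2) (𝓝[≠] 0)
      (𝓝 (∑ i, ∑ j, kk (r j) (r i) * ‖(Vᴴ * X * V) i j‖ ^ 2)) := by
  have hH : ∀ t : ℝ, (B + (t : ℂ) • X).IsHermitian := by
    intro t
    refine hB.herm.add ?_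
    unfold Matrix.IsHermitian
    rw [conjTranspose_smul, hX.eq]
    simp
  have h1 : ∀ t : ℝ, t ≠ 0 → rel (B + (t : ℂ) • X) B / t ^ 2 =
      ∑ i, (((Vᴴ * X) * cfc (fun q => kk q (r i)) (B + (t : ℂ) • X) * (Vᴴ * X)ᴴ) i i).re := by
    intro t ht
    have h2 := dg_of_herm (hH t)
    rw [rel_eq h2 hB]
    have h3 : (B + (t : ℂ) • X).trace.re - B.trace.re = 0 := by
      rw [trace_add, trace_smul, htr]
      simp
    rw [h3, zero_add, Finset.sum_div]
    refine Finset.sum_congr rfl fun i _ => ?_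
    rw [← row_cfc h2, Finset.sum_div]
    refine Finset.sum_congr rfl fun j _ => ?_
    have h4 : Vᴴ * (B + (t : ℂ) • X - B) = (t : ℂ) • (Vᴴ * X) := by
      rw [add_sub_cancel_left, Matrix.mul_smul]
    rw [h4, Matrix.smul_mul, Matrix.smul_apply, norm_smul, mul_pow, Complex.norm_real,
      Real.norm_eq_abs, sq_abs]
    field_simp
  have h2 : Continuous fun t : ℝ => ∑ i, (((Vᴴ * X) * cfc (fun q => kk q (r i))
      (B + (t : ℂ) • X) * (Vᴴ * X)ᴴ) i i).re := by
    refine continuous_finset_sum _ fun i _ => ?_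
    have h3 := cont_cfc (kk_continuous (hr i)) hB.herm hX
    have h4 : Continuous fun t : ℝ => (Vᴴ * X) * cfc (fun q => kk q (r i)) (B + (t : ℂ) • X) *
        (Vᴴ * X)ᴴ := (continuous_const.matrix_mul h3).matrix_mul continuous_const
    exact Complex.continuous_re.comp (h4.matrix_elem i i)
  have h5 := h2.tendsto 0
  have h6 : (∑ i, (((Vᴴ * X) * cfc (fun q => kk q (r i)) (B + ((0 : ℝ) : ℂ) • X) *
      (Vᴴ * X)ᴴ) i i).re) = ∑ i, ∑ j, kk (r j) (r i) * ‖(Vᴴ * X * V) i j‖ ^ 2 := by
    refine Finset.sum_congr rfl fun i _ => ?_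
    rw [Complex.ofReal_zero, zero_smul, add_zero, ← row_cfc hB]
  rw [h6] at h5
  refine (h5.mono_left nhdsWithin_le_nhds).congr' ?_
  filter_upwards [self_mem_nhdsWithin] with t ht
  exact (h1 t ht).symm

/-- for Hermitian directions the limit is half the inverse logarithmic mean. -/
theorem sum_kk {V X : Matrix α α ℂ} {r : α → ℝ} (hr : ∀ i, 0 < r i)
    (hX : X.IsHermitian) : ∑ i, ∑ j, kk (r j) (r i) * ‖(Vᴴ * X * V) i j‖ ^ 2 =
      (1 / 2) * ds (fun x y => (lm x y)⁻¹) r V X := by
  have hs : ∀ i j, ‖(Vᴴ * X * V) i j‖ = ‖(Vᴴ * X * V) j i‖ := by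
    intro i j
    have h1 : (Vᴴ * X * V)ᴴ = Vᴴ * X * V := by
      rw [conjTranspose_mul, conjTranspose_mul, conjTranspose_conjTranspose, hX.eq,
        Matrix.mul_assoc]
    conv_lhs => rw [← h1]
    rw [conjTranspose_apply, norm_star]
  have h2 : ∑ i, ∑ j, kk (r j) (r i) * ‖(Vᴴ * X * V) i j‖ ^ 2 =
      ∑ i, ∑ j, kk (r i) (r j) * ‖(Vᴴ * X * V) i j‖ ^ 2 := by
    rw [Finset.sum_comm]
    refine Finset.sum_congr rfl fun i _ => Finset.sum_congr rfl fun j _ => ?_
    rw [hs]
  unfold ds
  have h3 : (2 : ℝ) * ∑ i, ∑ j, kk (r j) (r i) * ‖(Vᴴ * X * V) i j‖ ^ 2 =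
      ∑ k, ∑ l, (lm (r k) (r l))⁻¹ * ‖(Vᴴ * X * V) k l‖ ^ 2 := by
    rw [two_mul]
    nth_rewrite 1 [h2]
    rw [← Finset.sum_add_distrib]
    refine Finset.sum_congr rfl fun i _ => ?_
    rw [← Finset.sum_add_distrib]
    refine Finset.sum_congr rfl fun j _ => ?_
    rw [← add_mul, kk_add (hr i) (hr j)]
  linarith

end

end Vale.Agent.P369.H63
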