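import Vale.Agent.P369.H63.So
import Vale.Agent.P369.FD.Stmts
import Vale.Agent.P369.H587.Dp

/-!
The dual second-order condition in the notation of `FD/Defs`.
-/

set_option linter.all false

namespace Vale.Agent.P369.H63

open Matrix Vale.Agent.P369.FD
open scoped Kronecker ComplexOrder

noncomputable section

variable {ι ι' κ ε : Type} [Fintype ι] [DecidableEq ι] [Fintype ι'] [DecidableEq ι']
  [Fintype κ] [DecidableEq κ] [Fintype ε] [DecidableEq ε]

theorem lm_eq {x y : ℝ} (hx : 0 < x) (hy : 0 < y) : H712.lm x y = lm x y := by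
  unfold H712.lm lm
  rw [if_neg (by push_neg; exact ⟨hx, hy⟩)]

theorem dform_lm {A : Matrix ι ι ℂ} (hA : A.PosDef) (Z : Matrix ι ι ℂ) :
    dform H712.lm hA.isHermitian Z =
      ds lm hA.isHermitian.eigenvalues (hA.isHermitian.eigenvectorUnitary : Matrix ι ι ℂ) Z := by
  unfold dform ds
  refine Finset.sum_congr rfl fun k _ => Finset.sum_congr rfl fun l _ => ?_
  rw [lm_eq (hA.eigenvalues_pos k) (hA.eigenvalues_pos l)]

/-- `X ↦ outp W X B` as a linear map -/
def PhA (W : Matrix (κ × ε) (ι × ι') ℂ) (B : Matrix ι' ι' ℂ) : Matrix ι ι ℂ →ₗ[ℂ] Matrix κ κ ℂ where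
  toFun X := outp W X B
  map_add' X Y := by
    unfold outp
    rw [Matrix.add_kronecker, Matrix.mul_add, Matrix.add_mul]
    ext i j
    simp [ptrR, Finset.sum_add_distrib]
  map_smul' c X := by
    unfold outp
    rw [Matrix.smul_kronecker, Matrix.mul_smul, Matrix.smul_mul]
    ext i j
    simp [ptrR, Finset.mul_sum]

/-- `X ↦ outp W A X` as a linear map -/
def PhB (W : Matrix (κ × ε) (ι × ι') ℂ) (A : Matrix ι ι ℂ) : Matrix ι' ι' ℂ →ₗ[ℂ] Matrix κ κ ℂ where
  toFun X := outp W A X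
  map_add' X Y := by
    unfold outp
    rw [Matrix.kronecker_add, Matrix.mul_add, Matrix.add_mul]
    ext i j
    simp [ptrR, Finset.sum_add_distrib]
  map_smul' c X := by
    unfold outp
    rw [Matrix.kronecker_smul, Matrix.mul_smul, Matrix.smul_mul]
    ext i j
    simp [ptrR, Finset.mul_sum]

theorem outp_conj (W : Matrix (κ × ε) (ι × ι') ℂ) (A : Matrix ι ι ℂ) (B : Matrix ι' ι' ℂ) :
    outp W Aᴴ Bᴴ = (outp W A B)ᴴ := by
  have h1 : W * (Aᴴ ⊗ₖ Bᴴ) * Wᴴ = (W * (A ⊗ₖ B) * Wᴴ)ᴴ := by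
    rw [conjTranspose_mul, conjTranspose_mul, conjTranspose_conjTranspose,
      Matrix.conjTranspose_kronecker, Matrix.mul_assoc]
  unfold outp
  rw [h1]
  exact P369.H587.ptr2_conjTranspose _

theorem trace_outp_EA (W : Matrix (κ × ε) (ι × ι') ℂ) (A : Matrix ι ι ℂ) (B : Matrix ι' ι' ℂ)
    (Z : Matrix κ κ ℂ) : (A * EA W B Z).trace = (outp W A B * Z).trace :=
  (P369.H587.trace_outC_dualA W A B Z).symm

theorem trace_outp_EB (W : Matrix (κ × ε) (ι × ι') ℂ) (A : Matrix ι ι ℂ) (B : Matrix ι' ι' ℂ)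
    (Z : Matrix κ κ ℂ) : (B * EB W A Z).trace = (outp W A B * Z).trace :=
  (P369.H587.trace_outC_dualB W A B Z).symm

theorem outp_trace (W : Matrix (κ × ε) (ι × ι') ℂ) (hW : Wᴴ * W = 1) (A : Matrix ι ι ℂ)
    (B : Matrix ι' ι' ℂ) : (outp W A B).trace = A.trace * B.trace := by
  have h := P369.H587.trace_outC_mul W A B 1
  rw [Matrix.mul_one, P369.H587.pull_one W hW, Matrix.mul_one, Matrix.trace_kronecker] at h
  exact h

theorem so_A (W : Matrix (κ × ε) (ι × ι') ℂ) (hW : Wᴴ * W = 1) {A : Matrix ι ι ℂ}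
    {B : Matrix ι' ι' ℂ} {C : Matrix κ κ ℂ} (hA : A.PosDef) (htA : A.trace = 1)
    (hB : B.IsHermitian) (htB : B.trace = 1) (hC : C.PosDef) {f : ℝ} (hf : 0 ≤ f)
    (h : ∀ A', IsDM A' → rel (C + (outp W A' B - outp W A B)) C ≤ f * rel A' A) (Z : Matrix κ κ ℂ) :
    dform H712.lm hA.isHermitian (EAc W A B Z) ≤ f * dform H712.lm hC.isHermitian Z := by
  rw [dform_lm hA, dform_lm hC]
  have h1 := so_dual hA (dg_of_herm hA.isHermitian) (dg_of_herm hC.isHermitian)
    (fun i => hA.eigenvalues_pos i) (fun i => hC.eigenvalues_pos i) htA (PhA W B)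
    (fun X => by
      show outp W Xᴴ B = (outp W X B)ᴴ
      rw [← outp_conj, hB.eq])
    (fun X => by
      show (outp W X B).trace = X.trace
      rw [outp_trace W hW, htB, mul_one]) hf
    (fun A' hA' ht' => by
      rw [map_sub]
      exact h A' ⟨hA', ht'⟩)
    (EA W B) (fun X Z => trace_outp_EA W X B Z) Z
  unfold EAc
  rw [trace_outp_EA] at h1
  exact h1

theorem so_B (W : Matrix (κ × ε) (ι × ι') ℂ) (hW : Wᴴ * W = 1) {A : Matrix ι ι ℂ}
    {B : Matrix ι' ι' ℂ} {C : Matrix κ κ ℂ} (hB : B.PosDef) (htB : B.trace = 1)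
    (hA : A.IsHermitian) (htA : A.trace = 1) (hC : C.PosDef) {f : ℝ} (hf : 0 ≤ f)
    (h : ∀ B', IsDM B' → rel (C + (outp W A B' - outp W A B)) C ≤ f * rel B' B) (Z : Matrix κ κ ℂ) :
    dform H712.lm hB.isHermitian (EBc W A B Z) ≤ f * dform H712.lm hC.isHermitian Z := by
  rw [dform_lm hB, dform_lm hC]
  have h1 := so_dual hB (dg_of_herm hB.isHermitian) (dg_of_herm hC.isHermitian)
    (fun i => hB.eigenvalues_pos i) (fun i => hC.eigenvalues_pos i) htB (PhB W A)
    (fun X => by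
      show outp W A Xᴴ = (outp W A X)ᴴ
      rw [← outp_conj, hA.eq])
    (fun X => by
      show (outp W A X).trace = X.trace
      rw [outp_trace W hW, htA, one_mul]) hf
    (fun B' hB' ht' => by
      rw [map_sub]
      exact h B' ⟨hB', ht'⟩)
    (EB W A) (fun X Z => trace_outp_EB W A X Z) Z
  unfold EBc
  rw [trace_outp_EB] at h1
  exact h1

end

end Vale.Agent.P369.H63
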