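import Vale.Agent.P369.H63.SoFD
import Vale.Agent.P369.H993.VarFD

/-!
P369, FD track: package VAR (duplicate of H993.ThmVar, under another name) assembled from helper993's
order condition `so_A`, `so_B`.
-/

set_option linter.all false

namespace Vale.Agent.P369.FD

open Matrix
open Vale.Agent.P369.H712 (lm)
open Vale.Agent.P369.H63 (rel so_A so_B)
open Vale.Agent.P369.H993 (fun_min fun_gibbs outL outR outL_apply outR_apply)
open scoped Kronecker ComplexOrder

theorem thm_VAR_63 : S_VAR := by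
  intro ι ι' κ ε _ _ _ _ _ _ _ _ _ _ W hW TC sA sB e hTC hsA hsB he PA PB hPA hPB
  obtain ⟨A, B, hA, hB, hmin⟩ := fun_min W TC sA sB (e := e) PA PB
  obtain ⟨pA, pB, pC, elA, elB, inA, inB⟩ :=
    fun_gibbs hW hTC.le hsA hsB he hPA hPB hA hB hmin rfl
  refine ⟨A, B, _, pA, pB, pC, hA.2, hB.2, rfl, hmin, elA, elB, fun Z => ?_, fun Z => ?_⟩
  · refine so_A W hW pA hA.2 pB.isHermitian hB.2 pC (div_nonneg hsA.le hTC.le) (fun A' hA' => ?_) Z
    have h := inA A' hA'
    rw [map_sub, outL_apply, outL_apply] at h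
    rw [div_mul_eq_mul_div, le_div_iff₀ hTC, mul_comm]
    exact h
  · refine so_B W hW pB hB.2 pA.isHermitian hA.2 pC (div_nonneg hsB.le hTC.le) (fun B' hB' => ?_) Z
    have h := inB B' hB'
    rw [map_sub, outR_apply, outR_apply] at h
    rw [div_mul_eq_mul_div, le_div_iff₀ hTC, mul_comm]
    exact h

end Vale.Agent.P369.FD
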